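import Vale.Agent.P030.T.H124.FrTab
import Vale.Agent.P030.H265.Flat
import Vale.Agent.P030.H639.N8b

/-!
# P030, route N: values of the relation matrices of the frame table (helper124)
-/

namespace Vale.Agent.P030.H124

open Vale.Agent.P030.AR Vale.Agent.P030.H265 Matrix
open scoped ComplexConjugate

noncomputable section

/-- the evaluation at the actual constants -/
def cv (T : ℂ) (x : Cf) : ℂ := x.val Complex.I (Complex.I * pc) (l2 / 2) T

/-- matrix of complex numbers from a list -/
def mv (φ : Cf → ℂ) (l : List (List Cf)) : Matrix (Fin 8) (Fin 8) ℂ := fun i j => φ (ofL l i j)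

theorem relQ_val (q : Fin 4) (T : ℂ) : mv (cv T) (relQ q) = RqC q := by
  ext i j
  revert j
  fin_cases q <;> fin_cases i <;> intro j <;> fin_cases j <;>
    simp [mv, cv, ofL, relQ, relI, RqC, Cf.val, Cf.zero, Cf.one, mo, cq, cI, evL, Tm.ev] <;>
    try ring

end

end Vale.Agent.P030.H124
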