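import Mathlib

/-!
# P030, route N: the computable coefficient ring of the frame table (helper124)

`Cf` = sparse polynomials in three letters `p` (`= i π`), `w` (`= log 2 / 2`), `T` (`=` the logarithm
at a cusp) over `ℚ(i)`, with one common denominator.  Everything is structural recursion over lists
and integers, so that `decide +kernel` is fast.  `Cf.val ι p w T` = evaluation (`ι ^ 2 = -1`).
-/

namespace Vale.Agent.P030.H124

/-- the monomial `(re + im i) p ^ a w ^ b T ^ c` -/
structure Tm where
  a : ℕ
  b : ℕ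
  c : ℕ
  re : ℤ
  im : ℤ
deriving DecidableEq, Repr

/-- the polynomial `(Σ t) / (d + 1)` -/
structure Cf where
  d : ℕ
  t : List Tm
deriving DecidableEq, Repr

namespace Tm

/-- same monomial -/
def same (x y : Tm) : Bool := x.a == y.a && (x.b == y.b && x.c == y.c)

/-- coefficient zero -/
def nul (x : Tm) : Bool := x.re == 0 && x.im == 0

def scl (n : ℤ) (x : Tm) : Tm := ⟨x.a, x.b, x.c, n * x.re, n * x.im⟩

def mul (x y : Tm) : Tm :=
  ⟨x.a + y.a, x.b + y.b, x.c + y.c, x.re * y.re - x.im * y.im, x.re * y.im + x.im * y.re⟩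

/-- `p ↦ -p`, `i ↦ -i` -/
def cj (x : Tm) : Tm := if x.a % 2 = 0 then ⟨x.a, x.b, x.c, x.re, -x.im⟩
  else ⟨x.a, x.b, x.c, -x.re, x.im⟩

/-- evaluation -/
noncomputable def ev (ι p w T : ℂ) (x : Tm) : ℂ :=
  ((x.re : ℂ) + (x.im : ℂ) * ι) * (p ^ x.a * w ^ x.b * T ^ x.c)

end Tm

/-- insert a monomial -/
def ins (x : Tm) : List Tm → List Tm
  | [] => bif x.nul then [] else [x]
  | y :: l => bif x.same y then
      (bif (x.re + y.re == 0 && x.im + y.im == 0) then l
        else ⟨y.a, y.b, y.c, x.re + y.re, x.im + y.im⟩ :: l)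
      else y :: ins x l

/-- sum -/
def addL : List Tm → List Tm → List Tm
  | [], m => m
  | x :: l, m => ins x (addL l m)

/-- add `(n x) * m` to `k` -/
def mulT (x : Tm) : List Tm → List Tm → List Tm
  | [], k => k
  | y :: m, k => ins (x.mul y) (mulT x m k)

/-- product -/
def mulL : List Tm → List Tm → List Tm
  | [], _ => []
  | x :: l, m => mulT x m (mulL l m)

noncomputable def evL (ι p w T : ℂ) : List Tm → ℂ
  | [] => 0
  | x :: l => x.ev ι p w T + evL ι p w T l

section

variable {ι p w T : ℂ}

theorem evL_ins (x : Tm) (l : List Tm) :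
    evL ι p w T (ins x l) = x.ev ι p w T + evL ι p w T l := by
  induction l with
  | nil =>
    unfold ins
    cases h : x.nul with
    | true =>
      simp only [Tm.nul, Bool.and_eq_true, beq_iff_eq] at h
      simp [evL, Tm.ev, h.1, h.2]
    | false => simp [evL]
  | cons y l ih =>
    unfold ins
    cases h : x.same y with
    | true =>
      simp only [Tm.same, Bool.and_eq_true, beq_iff_eq] at h
      obtain ⟨h1, h2, h3⟩ := h
      cases h' : (x.re + y.re == 0 && x.im + y.im == 0) with
      | true =>
        simp only [Bool.and_eq_true, beq_iff_eq] at h'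
        obtain ⟨h4, h5⟩ := h'
        simp only [cond_true, evL, Tm.ev, h1, h2, h3]
        have e4 : (x.re : ℂ) = -(y.re : ℂ) := by
          have : x.re = -y.re := by omega
          rw [this]; push_cast; rfl
        have e5 : (x.im : ℂ) = -(y.im : ℂ) := by
          have : x.im = -y.im := by omega
          rw [this]; push_cast; rfl
        rw [e4, e5]; ring
      | false =>
        simp only [cond_true, cond_false, evL, Tm.ev, h1, h2, h3]
        push_cast
        ring
    | false =>
      simp only [cond_false, evL, ih]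
      ring

theorem evL_addL (l m : List Tm) : evL ι p w T (addL l m) = evL ι p w T l + evL ι p w T m := by
  induction l with
  | nil => simp [addL, evL]
  | cons x l ih => simp only [addL, evL_ins, ih, evL]; ring

theorem ev_mul (hι : ι * ι = -1) (x y : Tm) :
    (x.mul y).ev ι p w T = x.ev ι p w T * y.ev ι p w T := by
  simp only [Tm.mul, Tm.ev, pow_add]
  push_cast
  linear_combination (x.im : ℂ) * y.im * (-(p ^ x.a * p ^ y.a * (w ^ x.b * w ^ y.b) *
    (T ^ x.c * T ^ y.c))) * hι

theorem evL_mulT (hι : ι * ι = -1) (x : Tm) (m k : List Tm) :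
    evL ι p w T (mulT x m k) = x.ev ι p w T * evL ι p w T m + evL ι p w T k := by
  induction m with
  | nil => simp [mulT, evL]
  | cons y m ih => simp only [mulT, evL_ins, ih, evL, ev_mul hι]; ring

theorem evL_mulL (hι : ι * ι = -1) (l m : List Tm) :
    evL ι p w T (mulL l m) = evL ι p w T l * evL ι p w T m := by
  induction l with
  | nil => simp [mulL, evL]
  | cons x l ih => simp only [mulL, evL_mulT hι, ih, evL]; ring

theorem evL_scl (n : ℤ) (l : List Tm) :
    evL ι p w T (l.map (Tm.scl n)) = n * evL ι p w T l := by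
  induction l with
  | nil => simp [evL]
  | cons x l ih =>
    simp only [List.map_cons, evL, ih, Tm.scl, Tm.ev]
    push_cast
    ring

theorem ev_cj (x : Tm) : x.cj.ev ι p w T = x.ev (-ι) (-p) w T := by
  unfold Tm.cj
  split_ifs with h
  · have : Even x.a := Nat.even_iff.2 h
    simp only [Tm.ev, this.neg_pow]
    push_cast
    ring
  · have : Odd x.a := Nat.odd_iff.2 (by omega)
    simp only [Tm.ev, this.neg_pow]
    push_cast
    ring

theorem evL_cj (l : List Tm) : evL ι p w T (l.map Tm.cj) = evL (-ι) (-p) w T l := by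
  induction l with
  | nil => rfl
  | cons x l ih => simp only [List.map_cons, evL, ih, ev_cj]

end

namespace Cf

/-- zero -/
def zero : Cf := ⟨0, []⟩

/-- one -/
def one : Cf := ⟨0, [⟨0, 0, 0, 1, 0⟩]⟩

/-- the monomial `(re + im i) / den * p ^ a w ^ b T ^ c`, written `mk1 den a b c re im` -/
def mk1 (den a b c : ℕ) (re im : ℤ) : Cf := ⟨den - 1, [⟨a, b, c, re, im⟩]⟩

/-- sum -/
def add (x y : Cf) : Cf :=
  bif x.t.isEmpty then y else bif y.t.isEmpty then x else
  bif x.d == y.d then ⟨x.d, addL x.t y.t⟩
  else ⟨x.d * y.d + x.d + y.d,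
    addL (x.t.map (Tm.scl ((y.d + 1 : ℕ) : ℤ))) (y.t.map (Tm.scl ((x.d + 1 : ℕ) : ℤ)))⟩

/-- negative -/
def neg (x : Cf) : Cf := ⟨x.d, x.t.map (Tm.scl (-1))⟩

/-- product -/
def mul (x y : Cf) : Cf :=
  bif x.t.isEmpty then ⟨0, []⟩ else bif y.t.isEmpty then ⟨0, []⟩ else
  ⟨x.d * y.d + x.d + y.d, mulL x.t y.t⟩

/-- complex conjugation, `p ↦ -p`, `i ↦ -i` (`w`, `T` fixed) -/
def cj (x : Cf) : Cf := ⟨x.d, x.t.map Tm.cj⟩

/-- zero test -/
def isZ (x : Cf) : Bool := x.t.all Tm.nul

/-- evaluation at `i ↦ ι`, `p`, `w`, `T` -/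
noncomputable def val (ι p w T : ℂ) (x : Cf) : ℂ := evL ι p w T x.t / ((x.d : ℂ) + 1)

variable {ι p w T : ℂ}

theorem val_def (x : Cf) : x.val ι p w T = evL ι p w T x.t / ((x.d : ℂ) + 1) := rfl

theorem val_zero : Cf.zero.val ι p w T = 0 := by simp [val_def, zero, evL]

theorem val_one : Cf.one.val ι p w T = 1 := by simp [val_def, one, evL, Tm.ev]

theorem val_nil {x : Cf} (h : x.t.isEmpty = true) : x.val ι p w T = 0 := by
  rw [List.isEmpty_iff] at h
  simp [val_def, h, evL]

theorem den_ne (n : ℕ) : ((n : ℂ) + 1) ≠ 0 := by exact_mod_cast Nat.succ_ne_zero n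

theorem val_add (x y : Cf) : (x.add y).val ι p w T = x.val ι p w T + y.val ι p w T := by
  unfold add
  cases h : x.t.isEmpty with
  | true => rw [cond_true, val_nil h, zero_add]
  | false =>
    rw [cond_false]
    cases h' : y.t.isEmpty with
    | true => rw [cond_true, val_nil h', add_zero]
    | false =>
      rw [cond_false]
      cases h2 : (x.d == y.d) with
      | true =>
        rw [cond_true]
        rw [beq_iff_eq] at h2
        simp only [val_def, evL_addL, h2]
        ring
      | false =>
        rw [cond_false]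
        simp only [val_def, evL_addL, evL_scl]
        push_cast
        have e1 := den_ne x.d
        have e2 := den_ne y.d
        have e3 : (x.d : ℂ) * y.d + x.d + y.d + 1 = (x.d + 1) * (y.d + 1) := by ring
        rw [e3]
        field_simp
        try ring

theorem val_neg (x : Cf) : x.neg.val ι p w T = -(x.val ι p w T) := by
  simp only [val_def, neg, evL_scl]
  push_cast
  ring

theorem val_mul (hι : ι * ι = -1) (x y : Cf) :
    (x.mul y).val ι p w T = x.val ι p w T * y.val ι p w T := by
  unfold mul
  cases h : x.t.isEmpty with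
  | true => rw [cond_true, val_nil h, zero_mul]; simp [val_def, evL]
  | false =>
    rw [cond_false]
    cases h' : y.t.isEmpty with
    | true => rw [cond_true, val_nil h', mul_zero]; simp [val_def, evL]
    | false =>
      rw [cond_false]
      simp only [val_def, evL_mulL hι]
      push_cast
      have e1 := den_ne x.d
      have e2 := den_ne y.d
      have e3 : (x.d : ℂ) * y.d + x.d + y.d + 1 = (x.d + 1) * (y.d + 1) := by ring
      rw [e3]
      field_simp

theorem val_cj (x : Cf) : x.cj.val ι p w T = x.val (-ι) (-p) w T := by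
  simp only [val_def, cj, evL_cj]

theorem val_isZ {x : Cf} (h : x.isZ = true) : x.val ι p w T = 0 := by
  have : ∀ l : List Tm, l.all Tm.nul = true → evL ι p w T l = 0 := by
    intro l
    induction l with
    | nil => intro _; rfl
    | cons y l ih =>
      intro hl
      rw [List.all_cons, Bool.and_eq_true] at hl
      obtain ⟨h1, h2⟩ := hl
      simp only [Tm.nul, Bool.and_eq_true, beq_iff_eq] at h1
      simp [evL, Tm.ev, h1.1, h1.2, ih h2]
  rw [val_def, this x.t h, zero_div]

/-- the star of an evaluation is an evaluation -/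
theorem star_val (x : Cf) : (starRingEnd ℂ) (x.val ι p w T) =
    x.val ((starRingEnd ℂ) ι) ((starRingEnd ℂ) p) ((starRingEnd ℂ) w) ((starRingEnd ℂ) T) := by
  have : ∀ l : List Tm, (starRingEnd ℂ) (evL ι p w T l) =
      evL ((starRingEnd ℂ) ι) ((starRingEnd ℂ) p) ((starRingEnd ℂ) w) ((starRingEnd ℂ) T) l := by
    intro l
    induction l with
    | nil => simp [evL]
    | cons y l ih => simp [evL, ih, Tm.ev]
  simp [val_def, this]

end Cf

end Vale.Agent.P030.H124
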