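import Vale.Agent.P030.T.H124.Cf

/-!
# P030, route N: relation matrices and the flat vectors of the frame table (helper124)

Rows = 265's rows `(e, a, c, d, h, d+g, A0/π, A3/π)`.  Letters of `Cf` : `p = i π`, `w = log 2 / 2`,
`T = log t / (i π)` (so that `E c T` becomes polynomial: `log t = p T`, `log t / π = i T`).
-/

namespace Vale.Agent.P030.H124

open Cf

/-- zero and one, short -/
abbrev cz : Cf := Cf.zero
abbrev cu : Cf := Cf.one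

/-- rational constants `n / d` and `i n / d` -/
def cq (n : ℤ) (d : ℕ) : Cf := ⟨d - 1, [⟨0, 0, 0, n, 0⟩]⟩
def cI (n : ℤ) (d : ℕ) : Cf := ⟨d - 1, [⟨0, 0, 0, 0, n⟩]⟩
/-- general monomial `(re + im i) / d * p ^ a w ^ b T ^ c` -/
def mo (re im : ℤ) (d a b c : ℕ) : Cf := ⟨d - 1, [⟨a, b, c, re, im⟩]⟩

/-- a matrix from its list of rows -/
def ofL (l : List (List Cf)) (i j : Fin 8) : Cf := (l.getD i.1 []).getD j.1 Cf.zero

/-- identity relation (interior walls) -/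
def relI : List (List Cf) :=
  [[cu, cz, cz, cz, cz, cz, cz, cz],
   [cz, cu, cz, cz, cz, cz, cz, cz],
   [cz, cz, cu, cz, cz, cz, cz, cz],
   [cz, cz, cz, cu, cz, cz, cz, cz],
   [cz, cz, cz, cz, cu, cz, cz, cz],
   [cz, cz, cz, cz, cz, cu, cz, cz],
   [cz, cz, cz, cz, cz, cz, cu, cz],
   [cz, cz, cz, cz, cz, cz, cz, cu]]

/-- `P (z) = relQ q * conj (P (conj z))` on the strip over the interval `q`
(`AR.Rf q`, conjugated, in 265's rows) -/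
def relQ : Fin 4 → List (List Cf)
  | 0 =>
    [[cu, cz, cz, cz, cz, cz, cz, cz],
     [cz, cu, cz, mo (-2) 0 1 1 0 0, cz, mo 2 0 1 1 0 0, cz, cz],
     [cz, cz, cu, cz, cz, mo 2 0 1 1 0 0, cz, cz],
     [cz, cz, cz, cu, cz, cz, cz, cz],
     [cz, cz, cz, cz, cu, cz, cz, cz],
     [cz, cz, cz, cz, cz, cu, cz, cz],
     [cz, cz, cz, cz, cz, cz, cq (-3) 1, cI (-2) 1],
     [cz, cz, cz, cz, cz, cz, cI 4 1, cq (-3) 1]]
  | 1 =>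
    [[cu, cz, cz, cz, cz, cz, cz, cz],
     [cz, cu, cz, cz, cz, cz, cz, cz],
     [cz, cz, cu, mo 2 0 1 1 0 0, cz, cz, cz, cz],
     [cz, cz, cz, cu, cz, cz, cz, cz],
     [cz, cz, cz, cz, cu, cz, cz, cz],
     [cz, cz, cz, cz, cz, cu, cz, cz],
     [cz, cz, cz, cz, cz, cz, cu, cz],
     [cz, cz, cz, cz, cz, cz, cI (-4) 1, cu]]
  | 2 => relI
  | 3 =>
    [[cu, cz, mo 2 0 1 1 0 0, mo 2 0 1 1 1 0, ⟨0, [⟨1, 1, 0, 2, 0⟩, ⟨2, 0, 0, 2, 0⟩]⟩,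
        mo (-2) 0 1 1 1 0, mo 0 1 2 2 0 0, mo (-1) 0 2 2 0 0],
     [cz, cu, cz, mo (-1) 0 1 1 0 0, mo 1 0 1 1 0 0, mo 1 0 1 1 0 0, cz, cz],
     [cz, cz, cu, cz, mo 2 0 1 1 0 0, cz, cz, cz],
     [cz, cz, cz, cu, cz, cz, cz, cz],
     [cz, cz, cz, cz, cu, cz, cz, cz],
     [cz, cz, cz, cz, cz, cu, cz, cz],
     [cz, cz, cz, cz, cz, cz, cu, cI 2 1],
     [cz, cz, cz, cz, cz, cz, cz, cu]]

/-- `P = relC c * (log-free P)` near the cusp `c`, `T = log t / (i π)` (639's `E c` in 265's rows) -/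
def relC : Fin 4 → List (List Cf)
  | 0 =>
    [[cu, cz, cz, cz, cz, cz, cz, cz],
     [cz, cu, cz, cz, cz, cz, cz, cz],
     [cz, cz, cu, mo 1 0 1 1 0 1, cz, cz, cz, cz],
     [cz, cz, cz, cu, cz, cz, cz, cz],
     [cz, cz, cz, cz, cu, cz, cz, cz],
     [cz, cz, cz, cz, cz, cu, cz, cz],
     [cz, cz, cz, cz, cz, cz, cu, cz],
     [cz, cz, cz, cz, cz, cz, mo 0 (-2) 1 0 0 1, cu]]
  | 1 =>
    [[cu, cz, cz, cz, cz, cz, cz, cz],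
     [cz, cu, cz, mo (-1) 0 1 1 0 1, cz, mo 1 0 1 1 0 1, cz, cz],
     [cz, cz, cu, mo (-1) 0 1 1 0 1, cz, mo 1 0 1 1 0 1, cz, cz],
     [cz, cz, cz, cu, cz, cz, cz, cz],
     [cz, cz, cz, cz, cu, cz, cz, cz],
     [cz, cz, cz, cz, cz, cu, cz, cz],
     [cz, cz, cz, cz, cz, cz, ⟨0, [⟨0, 0, 0, 1, 0⟩, ⟨0, 0, 1, 2, 0⟩]⟩, mo 0 (-1) 1 0 0 1],
     [cz, cz, cz, cz, cz, cz, mo 0 (-4) 1 0 0 1, ⟨0, [⟨0, 0, 0, 1, 0⟩, ⟨0, 0, 1, -2, 0⟩]⟩]]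
  | 2 =>
    [[cu, cz, mo 1 0 1 1 0 1, mo 1 0 1 1 1 1, ⟨1, [⟨1, 1, 1, 2, 0⟩, ⟨2, 0, 2, 1, 0⟩]⟩,
        ⟨1, [⟨1, 1, 1, -2, 0⟩, ⟨2, 0, 1, -2, 0⟩, ⟨2, 0, 2, -1, 0⟩]⟩,
        mo 0 1 4 2 0 1, mo 1 0 4 2 0 1],
     [cz, cu, cz, mo 1 0 2 1 0 1, mo 1 0 2 1 0 1, mo (-1) 0 2 1 0 1, cz, cz],
     [cz, cz, cu, cz, mo 1 0 1 1 0 1, mo (-1) 0 1 1 0 1, cz, cz],
     [cz, cz, cz, cu, cz, cz, cz, cz],
     [cz, cz, cz, cz, cu, cz, cz, cz],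
     [cz, cz, cz, cz, cz, cu, cz, cz],
     [cz, cz, cz, cz, cz, cz, ⟨0, [⟨0, 0, 0, 1, 0⟩, ⟨0, 0, 1, 2, 0⟩]⟩, mo 0 (-2) 1 0 0 1],
     [cz, cz, cz, cz, cz, cz, mo 0 (-2) 1 0 0 1, ⟨0, [⟨0, 0, 0, 1, 0⟩, ⟨0, 0, 1, -2, 0⟩]⟩]]
  | 3 =>
    [[cu, cz, mo (-1) 0 1 1 0 1, mo (-1) 0 1 1 1 1, ⟨1, [⟨1, 1, 1, -2, 0⟩, ⟨2, 0, 2, 1, 0⟩]⟩,
        mo 1 0 1 1 1 1, mo 0 (-1) 4 2 0 1, mo (-1) 0 8 2 0 2],
     [cz, cu, cz, mo 1 0 2 1 0 1, mo (-1) 0 2 1 0 1, mo (-1) 0 2 1 0 1, cz, cz],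
     [cz, cz, cu, cz, mo (-1) 0 1 1 0 1, cz, cz, cz],
     [cz, cz, cz, cu, cz, cz, cz, cz],
     [cz, cz, cz, cz, cu, cz, cz, cz],
     [cz, cz, cz, cz, cz, cu, cz, cz],
     [cz, cz, cz, cz, cz, cz, cu, mo 0 (-1) 1 0 0 1],
     [cz, cz, cz, cz, cz, cz, cz, cu]]

/-! ### the flat vectors of the tables, in 265's rows -/

def vE : List Cf := [cu, cz, cz, cz, cz, cz, cz, cz]
def vA : List Cf := [cz, cu, cz, cz, cz, cz, cz, cz]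
/-- `b = a - c + i π d + (l/2) g - (l/2) h` -/
def vB : List Cf := [cz, cu, cq (-1) 1, ⟨0, [⟨1, 0, 0, 1, 0⟩, ⟨0, 1, 0, -1, 0⟩]⟩,
  mo (-1) 0 1 0 1 0, mo 1 0 1 0 1 0, cz, cz]
/-- `Q = c - (l/2) g + (l/2 - i π) h - A0/4 + (i/4) A3` -/
def vQ : List Cf := [cz, cz, cu, mo 1 0 1 0 1 0, ⟨0, [⟨0, 1, 0, 1, 0⟩, ⟨1, 0, 0, -1, 0⟩]⟩,
  mo (-1) 0 1 0 1 0, mo 0 1 4 1 0 0, mo 1 0 4 1 0 0]
/-- `ab = a - b` -/
def vAB : List Cf := [cz, cz, cu, ⟨0, [⟨1, 0, 0, -1, 0⟩, ⟨0, 1, 0, 1, 0⟩]⟩,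
  mo 1 0 1 0 1 0, mo (-1) 0 1 0 1 0, cz, cz]
/-- `la = (5/6) d - (1/6) g - h + A3/(8 π)` -/
def vLa : List Cf := [cz, cz, cz, cu, cq (-1) 1, cq (-1) 6, cz, cq 1 8]
def vD : List Cf := [cz, cz, cz, cu, cz, cz, cz, cz]
/-- `Xl = h - g + A3/π` -/
def vXl : List Cf := [cz, cz, cz, cu, cu, cq (-1) 1, cz, cu]
/-- `X2 = h - A3/(4 π)` -/
def vX2 : List Cf := [cz, cz, cz, cz, cu, cz, cz, cq (-1) 4]
/-- `V2 = h - d - g` -/
def vV2 : List Cf := [cz, cz, cz, cz, cu, cq (-1) 1, cz, cz]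
/-- `s6 = d + g + (3i/(2π)) A0 + (3/(4π)) A3` -/
def vS6 : List Cf := [cz, cz, cz, cz, cz, cu, cI 3 2, cq 3 4]
/-- `K`-lines (in `A0/π`, `A3/π`) -/
def kA0 : List Cf := [cz, cz, cz, cz, cz, cz, cu, cz]
def kA1 : List Cf := [cz, cz, cz, cz, cz, cz, cI 2 1, cu]
def kA2 : List Cf := [cz, cz, cz, cz, cz, cz, cu, cI (-1) 1]
def kA3 : List Cf := [cz, cz, cz, cz, cz, cz, cz, cu]

/-- the ten frames of table v1 (helper390, #13695): rows `0..5` and the `K`-line -/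
def frV1 : List (List (List Cf)) :=
  [[vE, vB, vAB, vD, vV2, vS6, kA1],
   [vE, vB, vAB, vLa, vV2, vS6, kA2],
   [vE, vB, vAB, vLa, vX2, vS6, kA0],
   [vE, vA, vAB, vLa, vX2, vS6, kA0],
   [vE, vA, vAB, vD, vX2, vS6, kA0],
   [vE, vA, vQ, vLa, vX2, vS6, kA0],
   [vE, vB, vQ, vLa, vV2, vS6, kA2],
   [vE, vB, vQ, vLa, vX2, vS6, kA0],
   [vE, vB, vQ, vD, vV2, vS6, kA2],
   [vE, vA, vQ, vXl, vX2, vS6, kA0]]

/-! ### quick prototype of the pattern program (lists) -/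

/-- row vector times matrix -/
def rowMul (v : List Cf) (R : List (List Cf)) : List Cf :=
  (List.zipWith (fun x r => if x.isZ then [] else r.map (Cf.mul x)) v R).foldr
    (fun a s => match a with | [] => s | _ => List.zipWith Cf.add a s) (List.replicate 8 Cf.zero)

/-- subtract `m` times the row -/
def subRow (m : Cf) (v r : List Cf) : List Cf :=
  bif m.isZ then v else List.zipWith (fun x y => x.add ((m.mul y).neg)) v r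

/-- forward substitution: coordinates of `v` in the frame rows `fr` (levels from `c`) -/
def solveL : ℕ → List Cf → List (List Cf) → List Cf × List Cf
  | _, v, [] => ([], v)
  | c, v, r :: fr =>
    let m := v.getD c Cf.zero
    let s := solveL (c + 1) (subRow m v r) fr
    (m :: s.1, s.2)

def cjRow (v : List Cf) : List Cf := v.map Cf.cj
def cjFr (F : List (List Cf)) : List (List Cf) := F.map cjRow

/-- zero iff parallel -/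
def parZ (x y : List Cf) : Bool :=
  ((x.getD 6 Cf.zero).mul (y.getD 7 Cf.zero)).add
    (((x.getD 7 Cf.zero).mul (y.getD 6 Cf.zero)).neg) |>.isZ

/-- pattern of row `b` : list of the columns `c > b` with non zero coefficient -/
def pattRow (b : ℕ) (v : List Cf) (F' : List (List Cf)) : List ℕ :=
  let s := solveL 0 v (F'.take 6)
  let l := (List.range 6).filter fun c => c != b && !(s.1.getD c Cf.zero).isZ
  let r := s.2
  if (r.getD 6 Cf.zero).isZ && (r.getD 7 Cf.zero).isZ then l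
  else if parZ r (F'.getD 6 []) then l ++ [6] else l ++ [6, 7]

def pattAll (F F' R : List (List Cf)) : List (ℕ × List ℕ) :=
  let rows := (List.range 6).map fun b => (b, pattRow b (rowMul (F.getD b []) R) F')
  let k := rowMul (F.getD 6 []) R
  (rows ++ [(6, if parZ k (F'.getD 6 []) then [] else [7])]).filter fun x => !x.2.isEmpty

/-- same half plane -/
def pattIn (F F' : List (List Cf)) := pattAll F F' relI
/-- upper `F` to lower `F'` over the interval `q` -/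
def pattQ (q : Fin 4) (F F' : List (List Cf)) := pattAll F (cjFr F') (relQ q)

end Vale.Agent.P030.H124
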